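import Vale.Agent.P190.Main
import Vale.Agent.P190.Cnt
import Vale.Agent.P190.Kum
import Vale.Agent.P190.Der
import Vale.Agent.P190.Aut

namespace Vale.Agent.Results.P190.Disproof

open Vale.Agent.P190

/-- There is a complete Noetherian local domain `R` such that every nonzero finitely generated
`R`-module has depth strictly smaller than `dim R`. -/
theorem result.{u} : ∃ (R : Type) (_ : CommRing R) (_ : IsLocalRing R),
    IsDomain R ∧ IsNoetherianRing R ∧ IsAdicComplete (IsLocalRing.maximalIdeal R) R ∧
    ∀ (M : Type u) [AddCommGroup M] [Module R M], Module.Finite R M → Nontrivial M →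
      ∀ rs : List R, (∀ a ∈ rs, a ∈ IsLocalRing.maximalIdeal R) →
        RingTheory.Sequence.IsWeaklyRegular M rs →
        (rs.length : WithBot ℕ∞) < ringKrullDim R := by
  obtain ⟨R, _, _, h1, h2, h3, h4⟩ := main cnt kum gal (ind gal) (b0 (gr gen1))
    (der (gr gen1) gal (b0 (gr gen1))) (aut (gr gen1))
  exact ⟨R, _, _, h1, h2, h3, fun M _ _ _ _ => upgrade h4 M⟩

end Vale.Agent.Results.P190.Disproof
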